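import Vale.Agent.P207.N4.Dim
import Vale.Agent.P207.N5.H58.Pic
import Vale.Agent.P207.N5.H547.AffLemA
import Vale.Agent.P207.N4.H709.DarC

/-!
# P207: the stable holonomy in the affine coordinate of the disc

Over `P : Pic L V`: the crossing `P.Hq x ξ q` exists, is unique and satisfies the first order
formula `Hq - q + N0 (gr) = O(t ^ 2)`: the row `P.T2h`.
-/

set_option linter.unusedSectionVars false

open Set Filter Topology Metric
open scoped ContDiff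

noncomputable section

namespace Vale.Agent.P207.N4.V.H709

open Vale.Agent.P207.N4.H709

open Vale.Agent.P207.N3

variable [Dim]

variable {Γ X B : Type} [Group Γ] [MetricSpace X] [ProperSpace X] [MulAction Γ X]
  [IsIsometricSMul Γ X] [TopologicalSpace B] [CompactSpace B] [T2Space B] [MulAction Γ B]
  [ContinuousConstSMul Γ B] {L : Leaf Γ X B} [MeasurableSpace B] [BorelSpace B] {V : Type}
  [NormedAddCommGroup V] [NormedSpace ℝ V] [FiniteDimensional ℝ V]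

/-! ### positive operators -/

theorem norm_le_of_pos {A : E2 →L[ℝ] E2} {c : ℝ} (h : ∀ v, c * ‖v‖ ^ 2 ≤ inner ℝ (A v) v)
    (v : E2) : c * ‖v‖ ≤ ‖A v‖ := by
  rcases (norm_nonneg v).eq_or_lt with h0 | h0
  · rw [← h0, mul_zero]
    exact norm_nonneg _
  · have h1 := h v
    have h2 : inner ℝ (A v) v ≤ ‖A v‖ * ‖v‖ := real_inner_le_norm _ _
    have h3 : (c * ‖v‖) * ‖v‖ ≤ ‖A v‖ * ‖v‖ := by
      calc (c * ‖v‖) * ‖v‖ = c * ‖v‖ ^ 2 := by ring
        _ ≤ _ := h1.trans h2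
    exact le_of_mul_le_mul_right h3 h0

theorem isUnit_of_pos {A : E2 →L[ℝ] E2} {c : ℝ} (hc : 0 < c)
    (h : ∀ v, c * ‖v‖ ^ 2 ≤ inner ℝ (A v) v) : IsUnit A := by
  have hinj : Function.Injective (A : E2 →ₗ[ℝ] E2) := by
    refine (injective_iff_map_eq_zero _).2 fun v hv => ?_
    have h1 := norm_le_of_pos h v
    have h2 : A v = 0 := hv
    rw [h2, norm_zero] at h1
    have h3 : ‖v‖ ≤ 0 := by
      by_contra hcon
      push Not at hcon
      nlinarith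
    exact norm_le_zero_iff.1 h3
  let E := (LinearEquiv.ofInjectiveEndo (A : E2 →ₗ[ℝ] E2) hinj).toContinuousLinearEquiv
  have hE : (E : E2 →L[ℝ] E2) = A := by
    ext1 v
    rfl
  rw [← hE]
  exact ⟨ContinuousLinearEquiv.unitsEquiv ℝ E2 |>.symm E, rfl⟩

theorem inverse_bound {A : E2 →L[ℝ] E2} {c : ℝ} (hc : 0 < c)
    (h : ∀ v, c * ‖v‖ ^ 2 ≤ inner ℝ (A v) v) (w : E2) : ‖Ring.inverse A w‖ ≤ c⁻¹ * ‖w‖ := by
  have h1 := norm_le_of_pos h (Ring.inverse A w)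
  have h2 : A (Ring.inverse A w) = w := by
    have := DFunLike.congr_fun (Ring.mul_inverse_cancel A (isUnit_of_pos hc h)) w
    exact this
  rw [h2] at h1
  rw [inv_mul_eq_div, le_div_iff₀ hc, mul_comm]
  exact h1

theorem inverse_apply {A : E2 →L[ℝ] E2} {c : ℝ} (hc : 0 < c)
    (h : ∀ v, c * ‖v‖ ^ 2 ≤ inner ℝ (A v) v) (w : E2) : Ring.inverse A (A w) = w :=
  DFunLike.congr_fun (Ring.inverse_mul_cancel A (isUnit_of_pos hc h)) w

/-! ### Hessians and changes of coordinates -/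

theorem inner_hess {f : E2 → ℝ} {q : E2} (hd : DifferentiableAt ℝ (fderiv ℝ f) q) (v w : E2) :
    inner ℝ (hess f q v) w = fderiv ℝ (fderiv ℝ f) q v w := by
  have h2 : HasFDerivAt (gradient f) (rz ∘L fderiv ℝ (fderiv ℝ f) q) q := by
    rw [gradient_eq_rz]
    exact rz.hasFDerivAt.comp q hd.hasFDerivAt
  unfold hess
  rw [h2.fderiv]
  exact inner_rz _ _

set_option maxSynthPendingDepth 3 in
theorem norm_hess_le {f : E2 → ℝ} {q : E2} (hd : DifferentiableAt ℝ (fderiv ℝ f) q) :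
    ‖hess f q‖ ≤ ‖iteratedFDeriv ℝ 2 f q‖ := by
  have h2 : HasFDerivAt (gradient f) (rz ∘L fderiv ℝ (fderiv ℝ f) q) q := by
    rw [gradient_eq_rz]
    exact rz.hasFDerivAt.comp q hd.hasFDerivAt
  have h3 : ‖iteratedFDeriv ℝ 2 f q‖ = ‖fderiv ℝ (fderiv ℝ f) q‖ := by
    rw [← norm_iteratedFDeriv_fderiv, norm_iteratedFDeriv_one]
  rw [h3]
  unfold hess
  rw [h2.fderiv]
  refine ContinuousLinearMap.opNorm_le_bound _ (norm_nonneg (fderiv ℝ (fderiv ℝ f) q)) fun v => ?_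
  rw [ContinuousLinearMap.comp_apply, norm_rz]
  exact ContinuousLinearMap.le_opNorm _ _

/-- the Hessian at a critical point is a tensor -/
theorem hess_comp_crit {f : E2 → ℝ} {g : E2 → E2} {q : E2} (hf : ContDiffAt ℝ 2 f (g q))
    (hg : ContDiffAt ℝ 2 g q) (h0 : fderiv ℝ f (g q) = 0) (v w : E2) :
    inner ℝ (hess (fun t => f (g t)) q v) w =
      inner ℝ (hess f (g q) (fderiv ℝ g q v)) (fderiv ℝ g q w) := by
  have hfd : DifferentiableAt ℝ (fderiv ℝ f) (g q) :=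
    (hf.fderiv_right (m := 1) (by norm_num)).differentiableAt (by norm_num)
  have hgd : DifferentiableAt ℝ (fderiv ℝ g) q :=
    (hg.fderiv_right (m := 1) (by norm_num)).differentiableAt (by norm_num)
  have hg1 : DifferentiableAt ℝ g q := hg.differentiableAt (by norm_num)
  have e1 : ∀ᶠ t in 𝓝 q, DifferentiableAt ℝ g t := by
    have := hg.eventually (by simp)
    filter_upwards [this] with t ht using ht.differentiableAt (by norm_num)
  have e2 : ∀ᶠ t in 𝓝 q, DifferentiableAt ℝ f (g t) := by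
    have h1 := hf.eventually (by simp)
    have h2 := hg.continuousAt.eventually h1
    filter_upwards [h2] with t ht using ht.differentiableAt (by norm_num)
  have h1 : fderiv ℝ (fun t => f (g t)) =ᶠ[𝓝 q] fun t => (fderiv ℝ f (g t)).comp (fderiv ℝ g t) := by
    filter_upwards [e1, e2] with t ht1 ht2 using fderiv_comp t ht2 ht1
  have h2 : HasFDerivAt (fun t => fderiv ℝ f (g t)) ((fderiv ℝ (fderiv ℝ f) (g q)).comp
      (fderiv ℝ g q)) q := hfd.hasFDerivAt.comp q hg1.hasFDerivAt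
  have h3 := h2.clm_comp hgd.hasFDerivAt
  have h4 := h3.congr_of_eventuallyEq h1
  rw [inner_hess h4.differentiableAt, inner_hess hfd, h4.fderiv, h0]
  simp

/-! ### the Busemann functions in the affine coordinate -/

variable (P : Pic L V)

theorem bq_jc : JC (fun (p : X × B) q => P.bq p.1 p.2 q) {p | (p.1.1, p.2) ∈ P.Af.dT} := by
  have h1 : JC (fun (p : X × B) q => P.Af.dsc p.1 q) {p | (p.1.1, p.2) ∈ P.Af.dT} :=
    P.Af.dsc_jc.pullback (c := fun p : X × B => p.1) continuous_fst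
  exact P.Bu.be_jc.comp' h1 fun p hp => ⟨mem_univ _, P.Af.dsc_mem hp⟩

theorem bq_em_jc : JC (fun (p : X × B) q => P.bq p.1 (L.em p.1) q)
    {p | (p.1.1, p.2) ∈ P.Af.dT} := by
  have hc : Continuous fun p : X × B => ((p.1, L.em p.1) : X × B) :=
    continuous_fst.prodMk (L.em_cont.comp continuous_fst)
  exact (bq_jc P).pullback hc

theorem dlq_jc : JC (fun (p : X × B) q => P.dl p.1 p.2 q) {p | (p.1.1, p.2) ∈ P.Af.dT} :=
  (bq_jc P).sub (bq_em_jc P)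

theorem bq_smul (g : Γ) (x : X) (ξ : B) {q : E2} (h : (x, q) ∈ P.Af.dT) :
    P.bq (g • x) (g • ξ) q = P.bq x ξ q := by
  rw [Pic.bq, Pic.bq, Pic.dsc, Pic.dsc, P.Af.dsc_smul g h, P.Bu.be_smul g x ξ _ (P.Af.dsc_mem h)]

theorem dlq_smul (g : Γ) (x : X) (ξ : B) {q : E2} (h : (x, q) ∈ P.Af.dT) :
    P.dl (g • x) (g • ξ) q = P.dl x ξ q := by
  rw [Pic.dl, Pic.dl, bq_smul P g x ξ h, L.em_smul, bq_smul P g x _ h]

theorem dlq_eq (x : X) (ξ : B) (q : E2) : P.dl x ξ q = dl P.Bu x ξ (P.Af.dsc x q) := rfl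

theorem slice_dT (x : X) {q : E2} (h : (x, q) ∈ P.Af.dT) : ∀ᶠ t in 𝓝 q, (x, t) ∈ P.Af.dT :=
  (isOpen_slice P.Af.isOpen_dT x).mem_nhds h

theorem bq_contDiffAt (x : X) (ξ : B) {q : E2} (h : (x, q) ∈ P.Af.dT) :
    ContDiffAt ℝ ∞ (P.bq x ξ) q := (bq_jc P).contDiffAt (p := ((x, ξ), q)) h

theorem dlq_contDiffAt (x : X) (ξ : B) {q : E2} (h : (x, q) ∈ P.Af.dT) :
    ContDiffAt ℝ ∞ (P.dl x ξ) q := (dlq_jc P).contDiffAt (p := ((x, ξ), q)) h

theorem Sq_contDiffAt (x : X) (ξ η : B) {q : E2} (h : (x, q) ∈ P.Af.dT) :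
    ContDiffAt ℝ ∞ (P.Sq x ξ η) q := (bq_contDiffAt P x ξ h).add (bq_contDiffAt P x η h)

theorem Sq_min (x : X) (ξ : B) {q : E2} (h : (x, q) ∈ P.Af.dT) {η : B}
    (hη : P.Th x ξ q = η) : IsLocalMin (P.Sq x ξ η) q := by
  filter_upwards [slice_dT P x h] with t ht
  have h1 := be_min P.Bu x ξ (P.Af.dsc_mem h) (P.Af.dsc_mem ht)
  have h2 : P.Bu.en x ξ (P.Af.dsc x q) = η := hη
  rw [h2] at h1
  exact h1

theorem Sq_grad (x : X) (ξ : B) {q : E2} (h : (x, q) ∈ P.Af.dT) {η : B}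
    (hη : P.Th x ξ q = η) : gradient (P.Sq x ξ η) q = 0 :=
  gradient_zero_of_min (Sq_min P x ξ h hη)

theorem Th_em (x : X) {q : E2} (h : (x, q) ∈ P.Af.dT) : P.Th x (L.em x) q = P.Af.pt x q := by
  rw [Pic.Th, Pic.dsc, P.Bu.en_em x _ (P.Af.dsc_mem h), P.Af.e_dsc h]

theorem Sq_em_grad (x : X) {q : E2} (h : (x, q) ∈ P.Af.dT) :
    gradient (P.Sq x (L.em x) (P.Af.pt x q)) q = 0 := Sq_grad P x _ h (Th_em P x h)

theorem Sq_eq (x : X) (ξ η : B) (q : E2) : P.Sq x ξ η q = P.Sq x (L.em x) η q + P.dl x ξ q := by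
  rw [Pic.Sq, Pic.Sq, Pic.dl]
  ring

theorem Sq_gradient (x : X) (ξ η : B) {q : E2} (h : (x, q) ∈ P.Af.dT) :
    gradient (P.Sq x ξ η) q = gradient (P.Sq x (L.em x) η) q + P.gr x ξ q := by
  have h1 : P.Sq x ξ η = fun t => P.Sq x (L.em x) η t + P.dl x ξ t := funext (Sq_eq P x ξ η)
  rw [h1, gradient_add' ((Sq_contDiffAt P x _ η h).differentiableAt (by simp))
    ((dlq_contDiffAt P x ξ h).differentiableAt (by simp))]
  rfl

theorem fderiv_zero_of_gradient {f : E2 → ℝ} {q : E2} (h : gradient f q = 0) :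
    fderiv ℝ f q = 0 := by
  have h1 : ‖rz (fderiv ℝ f q)‖ = 0 := by
    rw [gradient_eq_rz] at h
    simp only at h
    rw [h, norm_zero]
  rw [norm_rz] at h1
  exact norm_eq_zero.1 h1

theorem norm_gradient (f : E2 → ℝ) (q : E2) : ‖gradient f q‖ = ‖fderiv ℝ f q‖ := by
  rw [gradient_eq_rz]
  exact norm_rz _

theorem dsc_mem_one' (x : X) {q : E2} (hq : q ∈ closedBall (0 : E2) 2) :
    P.Af.dsc x q ∈ closedBall (0 : E2) 1 := ball_subset_closedBall (P.Af.dsc_mem_one x hq)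

/-- a bound of the derivative of the affine chart on the disc -/
theorem exists_M : ∃ M : ℝ, 1 ≤ M ∧ ∀ x, ∀ u ∈ closedBall (0 : E2) 2,
    ‖fderiv ℝ (P.Af.cu x) u‖ ≤ M := by
  obtain ⟨M, hM⟩ := P.Af.cu_bound (r := 2) (by norm_num) 1
  refine ⟨max M 1, le_max_right _ _, fun x u hu => ?_⟩
  have h1 := hM x u hu
  rw [norm_iteratedFDeriv_one] at h1
  exact h1.trans (le_max_left _ _)

/-- **uniform positivity of the Hessian in the affine coordinate** -/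
theorem sq_pos : ∃ c > 0, ∀ x, ∀ q ∈ closedBall (0 : E2) 2, ∀ v,
    c * ‖v‖ ^ 2 ≤ inner ℝ (hess (P.Sq x (L.em x) (P.Af.pt x q)) q v) v := by
  obtain ⟨c, hc, h⟩ := exists_pos P.Bu P.nupos (r := 1) (by norm_num)
  obtain ⟨M, hM1, hM⟩ := exists_M P
  have hM0 : 0 < M := by linarith
  refine ⟨c / M ^ 2, by positivity, fun x q hq v => ?_⟩
  have hT := P.Af.closedBall_dT x hq
  have hu := dsc_mem_one' P x hq
  have hu3 := P.Af.dsc_mem hT
  set u := P.Af.dsc x q with hudef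
  set η := P.Af.pt x q with hη
  have he : L.e x u = η := P.Af.e_dsc hT
  set f : E2 → ℝ := fun t => P.Bu.be x (L.em x) t + P.Bu.be x η t with hf
  have hcf : ContDiffAt ℝ 2 f u := by
    have h1 : ∀ ζ, ContDiffAt ℝ 2 (P.Bu.be x ζ) u := fun ζ =>
      (P.Bu.be_jc.contDiffAt (p := ((x, ζ), u)) ⟨mem_univ _, hu3⟩).of_le (WithTop.coe_le_coe.2 (le_top : (2 : ℕ∞) ≤ ⊤))
    exact (h1 _).add (h1 _)
  have hcg : ContDiffAt ℝ 2 (P.Af.dsc x) q := (P.Af.dsc_smooth x hT).of_le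
    (WithTop.coe_le_coe.2 (le_top : (2 : ℕ∞) ≤ ⊤))
  have hf0 : fderiv ℝ f u = 0 := by
    refine fderiv_zero_of_gradient ?_
    refine gradient_cross P.Bu x _ _ hu3 ?_
    rw [P.Bu.en_em x u hu3, he]
  have h1 := hess_comp_crit hcf hcg hf0 v v
  have h2 : hess f u = hess (P.Bu.be x (L.em x)) u + hess (P.Bu.be x η) u := by
    rw [hf, hess_sum' P.Bu x _ _ hu3, ← hess_sum P.Bu x _ _ hu3]
  have h3 := h x u hu (fderiv ℝ (P.Af.dsc x) q v)
  rw [he, ← h2, ← h1] at h3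
  have h4 : ‖v‖ ≤ M * ‖fderiv ℝ (P.Af.dsc x) q v‖ := by
    have h5 := DFunLike.congr_fun (P.Af.der_cu_dsc hT) v
    have h6 : fderiv ℝ (P.Af.cu x) u (fderiv ℝ (P.Af.dsc x) q v) = v := h5
    calc ‖v‖ = ‖fderiv ℝ (P.Af.cu x) u (fderiv ℝ (P.Af.dsc x) q v)‖ := by rw [h6]
      _ ≤ ‖fderiv ℝ (P.Af.cu x) u‖ * ‖fderiv ℝ (P.Af.dsc x) q v‖ :=
        ContinuousLinearMap.le_opNorm _ _
      _ ≤ _ := by
        gcongr
        exact hM x u (closedBall_subset_closedBall (by norm_num) hu)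
  have h7 : c / M ^ 2 * ‖v‖ ^ 2 ≤ c * ‖fderiv ℝ (P.Af.dsc x) q v‖ ^ 2 := by
    rw [div_mul_eq_mul_div, div_le_iff₀ (by positivity)]
    have h8 : ‖v‖ ^ 2 ≤ (M * ‖fderiv ℝ (P.Af.dsc x) q v‖) ^ 2 := by gcongr
    calc c * ‖v‖ ^ 2 ≤ c * (M * ‖fderiv ℝ (P.Af.dsc x) q v‖) ^ 2 := by gcongr
      _ = c * ‖fderiv ℝ (P.Af.dsc x) q v‖ ^ 2 * M ^ 2 := by ring
  exact h7.trans h3

/-! ### the gradients in the two coordinates -/

theorem gr_zero (x : X) (ξ : B) : P.gr x ξ 0 = P.Af.c⁻¹ • gradient (dl P.Bu x ξ) 0 := by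
  refine ext_inner_right ℝ fun v => ?_
  have hT := P.Af.zero_dT x
  have h0 : P.Af.dsc x 0 = 0 := P.Af.dsc_zero x
  have h1 : HasFDerivAt (dl P.Bu x ξ) (fderiv ℝ (dl P.Bu x ξ) 0) (P.Af.dsc x 0) := by
    rw [h0]
    exact ((dl_smooth P.Bu x ξ).contDiffAt (isOpen_ball.mem_nhds zero_mem3)).differentiableAt
      (by simp) |>.hasFDerivAt
  have h2 : HasFDerivAt (P.dl x ξ) ((fderiv ℝ (dl P.Bu x ξ) 0).comp (fderiv ℝ (P.Af.dsc x) 0)) 0 :=
    h1.comp 0 (P.Af.dsc_diff hT).hasFDerivAt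
  rw [Pic.gr, gradient_eq_rz, gradient_eq_rz, inner_rz, h2.fderiv, inner_smul_left, inner_rz,
    P.Af.der_dsc_zero x]
  simp

theorem nr_lab {ε ρ : ℝ} (h : ε * P.Af.c < ρ) (hρ : ρ ≤ P.Bu.δ) {x : X} {ξ : B}
    (hN : P.Nr ε x ξ) : ∃ y, ‖y‖ < ρ ∧ lab P.Bu x y = ξ := by
  have h1 := gr_zero P x ξ
  have hc := P.Af.c_pos
  have h2 : ‖gradient (dl P.Bu x ξ) 0‖ = P.Af.c * ‖P.gr x ξ 0‖ := by
    rw [h1, norm_smul, norm_inv, Real.norm_eq_abs, abs_of_pos hc]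
    field_simp
  have h3 : ‖gradient (dl P.Bu x ξ) 0‖ < ρ := by
    rw [h2, mul_comm]
    exact (mul_le_mul_of_nonneg_right hN.2 hc.le).trans_lt h
  exact ⟨_, h3, lab_unique P.Bu x ξ hN.1.le (h3.trans_le hρ)⟩

theorem gradient_disc_le (x : X) (ξ : B) {q : E2} (hq : q ∈ closedBall (0 : E2) 2) {M : ℝ}
    (hM : ‖fderiv ℝ (P.Af.cu x) (P.Af.dsc x q)‖ ≤ M) :
    ‖gradient (dl P.Bu x ξ) (P.Af.dsc x q)‖ ≤ M * ‖P.gr x ξ q‖ := by
  have hT := P.Af.closedBall_dT x hq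
  have hu3 := P.Af.dsc_mem hT
  set u := P.Af.dsc x q with hu
  have hcu : P.Af.cu x u = q := P.Af.cu_dsc hT
  have h1 : HasFDerivAt (P.dl x ξ) (fderiv ℝ (P.dl x ξ) q) (P.Af.cu x u) := by
    rw [hcu]
    exact ((dlq_contDiffAt P x ξ hT).differentiableAt (by simp)).hasFDerivAt
  have h2 := h1.comp u (P.Af.cu_diff x hu3).hasFDerivAt
  have h3 : dl P.Bu x ξ =ᶠ[𝓝 u] (P.dl x ξ ∘ P.Af.cu x) := by
    filter_upwards [isOpen_ball.mem_nhds hu3] with t ht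
    rw [Function.comp_apply, dlq_eq, P.Af.dsc_cu x (ball_subset_closedBall ht)]
  have h4 := h2.congr_of_eventuallyEq h3
  rw [norm_gradient, h4.fderiv, Pic.gr, norm_gradient]
  calc _ ≤ ‖fderiv ℝ (P.dl x ξ) q‖ * ‖fderiv ℝ (P.Af.cu x) u‖ := ContinuousLinearMap.opNorm_comp_le _ _
    _ ≤ ‖fderiv ℝ (P.dl x ξ) q‖ * M := by gcongr
    _ = _ := mul_comm _ _

/-- **the crossings in the affine coordinate** -/
theorem exists_hq {ε : ℝ} (hε : 0 < ε) : ∃ ε₁ > 0, ∃ K, 0 ≤ K ∧ ∀ x ξ, P.Nr ε₁ x ξ →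
    ∀ q ∈ closedBall (0 : E2) (7 / 4), P.Hq x ξ q ∈ ball (0 : E2) 2 ∧
      P.Th x ξ (P.Hq x ξ q) = P.Af.pt x q ∧ P.hh x ξ q = P.Aq x ξ (P.Hq x ξ q) ∧
      ‖P.Hq x ξ q - q‖ < ε ∧ ‖P.Hq x ξ q - q‖ ≤ K * ‖P.gr x ξ q‖ ∧
      ∀ q' ∈ closedBall (0 : E2) 2, P.Th x ξ q' = P.Af.pt x q → q' = P.Hq x ξ q := by
  obtain ⟨M, hM1, hM⟩ := exists_M P
  have hM0 : 0 < M := by linarith
  obtain ⟨c, hc, ρ, hρ, hρδ, h⟩ := exists_cross P.Bu P.nupos (r := 1) (R := 2) (by norm_num)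
    (by norm_num) (ε := min ε (1 / 8) / M) (by positivity)
  have hcA := P.Af.c_pos
  refine ⟨ρ / (2 * P.Af.c), by positivity, M * (c⁻¹ * M), by positivity, ?_⟩
  intro x ξ hN q hq
  obtain ⟨y, hy, hyξ⟩ := nr_lab P (ρ := ρ) (by
    have : ρ / (2 * P.Af.c) * P.Af.c = ρ / 2 := by field_simp
    rw [this]
    linarith) hρδ hN
  have hq2 : q ∈ closedBall (0 : E2) 2 := closedBall_subset_closedBall (by norm_num) hq
  have hT := P.Af.closedBall_dT x hq2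
  have hu := dsc_mem_one' P x hq2
  set u := P.Af.dsc x q with hudef
  have he : L.e x u = P.Af.pt x q := P.Af.e_dsc hT
  have hcu : P.Af.cu x u = q := P.Af.cu_dsc hT
  obtain ⟨u', hu', h1, h2, h3, -, h5⟩ := h x y hy u hu
  rw [hyξ] at h1 h3 h5
  rw [he] at h1 h5
  have hu2 : u ∈ closedBall (0 : E2) 2 := closedBall_subset_closedBall (by norm_num) hu
  have hu'2 : u' ∈ closedBall (0 : E2) 2 := ball_subset_closedBall hu'
  have hlip : ‖P.Af.cu x u' - P.Af.cu x u‖ ≤ M * ‖u' - u‖ :=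
    (convex_closedBall (0 : E2) 2).norm_image_sub_le_of_norm_fderiv_le
      (fun w hw => P.Af.cu_diff x (closedBall_subset_ball (by norm_num) hw))
      (fun w hw => hM x w hw) hu2 hu'2
  rw [hcu] at hlip
  have hsm : ‖P.Af.cu x u' - q‖ < min ε (1 / 8) := by
    refine hlip.trans_lt ?_
    rw [lt_div_iff₀ hM0] at h2
    linarith [mul_comm M ‖u' - u‖]
  have hmem : P.Af.cu x u' ∈ ball (0 : E2) 2 := by
    rw [mem_ball_zero_iff]
    have h6 : ‖q‖ ≤ 7 / 4 := by simpa using hq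
    have h7 : ‖P.Af.cu x u'‖ ≤ ‖q‖ + ‖P.Af.cu x u' - q‖ := by
      simpa using norm_add_le q (P.Af.cu x u' - q)
    have h8 := hsm.trans_le (min_le_right _ _)
    linarith
  have hdsc : P.Af.dsc x (P.Af.cu x u') = u' :=
    P.Af.dsc_cu x (closedBall_subset_closedBall (by norm_num) hu'2)
  have hTh : P.Th x ξ (P.Af.cu x u') = P.Af.pt x q := by
    rw [Pic.Th, Pic.dsc, hdsc, h1]
  have huni : ∀ q' ∈ closedBall (0 : E2) 2, P.Th x ξ q' = P.Af.pt x q → q' = P.Af.cu x u' := by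
    intro q' hq' hq'T
    have h6 : P.Af.dsc x q' = u' := h5 _ (closedBall_subset_closedBall (by norm_num)
      (dsc_mem_one' P x hq')) hq'T
    rw [← h6]
    exact (P.Af.cu_dsc (P.Af.closedBall_dT x hq')).symm
  have hex : ∃ a ∈ closedBall (0 : E2) 2, P.Th x ξ a = P.Af.pt x q :=
    ⟨_, ball_subset_closedBall hmem, hTh⟩
  have hH : P.Hq x ξ q = P.Af.cu x u' := huni _ (Function.invFunOn_mem hex)
    (Function.invFunOn_eq hex)
  rw [hH]
  refine ⟨hmem, hTh, ?_, hsm.trans_le (min_le_left _ _), ?_, huni⟩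
  · rw [Pic.hh, Pic.Aq, hTh]
  · have h6 := gradient_disc_le P x ξ hq2 (hM x u hu2)
    have h7 : ‖u' - u‖ ≤ c⁻¹ * (M * ‖P.gr x ξ q‖) := by
      rw [inv_mul_eq_div, le_div_iff₀ hc, mul_comm]
      exact h3.trans h6
    calc _ ≤ M * ‖u' - u‖ := hlip
      _ ≤ M * (c⁻¹ * (M * ‖P.gr x ξ q‖)) := by gcongr
      _ = _ := by ring

/-! ### the first order formula -/

theorem hess_diff {f : E2 → ℝ} {q : E2} (h : ContDiffAt ℝ ∞ f q) :
    DifferentiableAt ℝ (gradient f) q := by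
  have h1 : ContDiffAt ℝ 2 f q := h.of_le (WithTop.coe_le_coe.2 (le_top : (2 : ℕ∞) ≤ ⊤))
  have h2 : DifferentiableAt ℝ (fderiv ℝ f) q :=
    (h1.fderiv_right (m := 1) (by norm_num)).differentiableAt (by norm_num)
  rw [gradient_eq_rz]
  exact (rz.hasFDerivAt.comp q h2.hasFDerivAt).differentiableAt

/-- the Newton step: an exact estimate at a crossing, both points in the closed ball -/
theorem newton : ∃ K, 0 ≤ K ∧ ∀ x ξ, ∀ q ∈ closedBall (0 : E2) 2, ∀ q' ∈ closedBall (0 : E2) 2,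
    P.Th x ξ q' = P.Af.pt x q →
    ‖hess (P.Sq x (L.em x) (P.Af.pt x q)) q (q' - q) + P.gr x ξ q'‖ ≤ K * ‖q' - q‖ ^ 2 := by
  have hjc : JC (fun (p : X × B) q => P.Sq p.1 (L.em p.1) p.2 q) {p | (p.1.1, p.2) ∈ P.Af.dT} :=
    (bq_em_jc P).add (bq_jc P)
  obtain ⟨K, hK⟩ := Leaf.bndB L (hess_jc hjc) (fun g x ξ q hq => by
    refine hess_congr ?_
    filter_upwards [slice_dT P x hq] with t ht
    rw [Pic.Sq, Pic.Sq, bq_smul P g x ξ ht, L.em_smul, bq_smul P g x _ ht])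
    (isCompact_closedBall (0 : E2) 2) (fun x ξ q hq => P.Af.closedBall_dT x hq) 1
  refine ⟨max K 0, le_max_right _ _, fun x ξ q hq q' hq' hTh => ?_⟩
  set η := P.Af.pt x q with hη
  have hT := P.Af.closedBall_dT x hq
  have hT' := P.Af.closedBall_dT x hq'
  set G : E2 → E2 := gradient (P.Sq x (L.em x) η) with hG
  have hG0 : G q = 0 := Sq_em_grad P x hT
  have hG' : G q' = -P.gr x ξ q' := by
    have h1 := Sq_gradient P x ξ η hT'
    rw [Sq_grad P x ξ hT' hTh] at h1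
    exact eq_neg_of_add_eq_zero_left h1.symm
  have hGd : ∀ w ∈ closedBall (0 : E2) 2, DifferentiableAt ℝ G w := fun w hw =>
    hess_diff (Sq_contDiffAt P x _ _ (P.Af.closedBall_dT x hw))
  have hHd : ∀ w ∈ closedBall (0 : E2) 2,
      DifferentiableAt ℝ (hess (P.Sq x (L.em x) η)) w := fun w hw =>
    (hess_jc hjc).differentiableAt (p := ((x, η), w)) (P.Af.closedBall_dT x hw)
  have hseg : segment ℝ q q' ⊆ closedBall (0 : E2) 2 :=
    (convex_closedBall _ _).segment_subset hq hq'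
  have hb : ∀ w ∈ segment ℝ q q', ‖fderiv ℝ G w - fderiv ℝ G q‖ ≤ max K 0 * ‖q' - q‖ := by
    intro w hw
    have h1 : ‖hess (P.Sq x (L.em x) η) w - hess (P.Sq x (L.em x) η) q‖ ≤
        max K 0 * ‖w - q‖ :=
      (convex_closedBall (0 : E2) 2).norm_image_sub_le_of_norm_fderiv_le hHd
        (fun w hw => by
          have h2 := hK x η w hw
          rw [norm_iteratedFDeriv_one] at h2
          exact h2.trans (le_max_left _ _)) hq (hseg hw)
    refine h1.trans ?_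
    gcongr
    exact norm_sub_le_of_mem_segment hw
  have hmv := (convex_segment q q').norm_image_sub_le_of_norm_fderiv_le' (f := G)
    (φ := fderiv ℝ G q) (fun w hw => hGd w (hseg hw)) hb (left_mem_segment ℝ q q')
    (right_mem_segment ℝ q q')
  rw [hG0, hG', sub_zero] at hmv
  have e1 : hess (P.Sq x (L.em x) η) q (q' - q) + P.gr x ξ q' =
      -(-P.gr x ξ q' - fderiv ℝ G q (q' - q)) := by
    rw [hG]
    unfold hess
    abel
  rw [e1, norm_neg]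
  calc _ ≤ max K 0 * ‖q' - q‖ * ‖q' - q‖ := hmv
    _ = _ := by ring

/-- the formula with the gradient at the crossing -/
theorem newton_N0 : ∃ K, 0 ≤ K ∧ ∀ x ξ, ∀ q ∈ closedBall (0 : E2) 2,
    ∀ q' ∈ closedBall (0 : E2) 2, P.Th x ξ q' = P.Af.pt x q →
    ‖q' - q + P.N0 x q (P.gr x ξ q')‖ ≤ K * ‖q' - q‖ ^ 2 := by
  obtain ⟨c, hc, hpos⟩ := sq_pos P
  obtain ⟨K, hK0, hK⟩ := newton P
  refine ⟨c⁻¹ * K, by positivity, fun x ξ q hq q' hq' hTh => ?_⟩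
  have h1 := hK x ξ q hq q' hq' hTh
  have h2 := inverse_bound hc (hpos x q hq)
    (hess (P.Sq x (L.em x) (P.Af.pt x q)) q (q' - q) + P.gr x ξ q')
  rw [map_add, inverse_apply hc (hpos x q hq)] at h2
  calc _ ≤ c⁻¹ * ‖hess (P.Sq x (L.em x) (P.Af.pt x q)) q (q' - q) + P.gr x ξ q'‖ := h2
    _ ≤ c⁻¹ * (K * ‖q' - q‖ ^ 2) := by gcongr
    _ = _ := by ring

theorem N0_bound : ∃ K, 0 ≤ K ∧ ∀ x, ∀ q ∈ closedBall (0 : E2) 2, ∀ w,
    ‖P.N0 x q w‖ ≤ K * ‖w‖ := by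
  obtain ⟨c, hc, hpos⟩ := sq_pos P
  exact ⟨c⁻¹, by positivity, fun x q hq w => inverse_bound hc (hpos x q hq) w⟩

/-- the change of the Hessian of `dl` is uniformly Lipschitz -/
theorem exists_hess_lip : ∃ K, 0 ≤ K ∧ ∀ x ξ, ∀ q ∈ closedBall (0 : E2) 2,
    ∀ q' ∈ closedBall (0 : E2) 2,
    ‖hess (P.dl x ξ) q' - hess (P.dl x ξ) q‖ ≤ K * ‖q' - q‖ := by
  obtain ⟨K, hK⟩ := Leaf.bndB L (hess_jc (dlq_jc P)) (fun g x ξ q hq => by
    refine hess_congr ?_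
    filter_upwards [slice_dT P x hq] with t ht using dlq_smul P g x ξ ht)
    (isCompact_closedBall (0 : E2) 2) (fun x ξ q hq => P.Af.closedBall_dT x hq) 1
  refine ⟨max K 0, le_max_right _ _, fun x ξ q hq q' hq' => ?_⟩
  exact (convex_closedBall (0 : E2) 2).norm_image_sub_le_of_norm_fderiv_le
    (fun w hw => (hess_jc (dlq_jc P)).differentiableAt (p := ((x, ξ), w))
      (P.Af.closedBall_dT x hw))
    (fun w hw => by
      have h2 := hK x ξ w hw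
      rw [norm_iteratedFDeriv_one] at h2
      exact h2.trans (le_max_left _ _)) hq hq'

/-- the gradient of `dl` between two points, when the Hessian is bounded by `A` at one of them -/
theorem gr_sub_le {x : X} {ξ : B} {K A : ℝ} (hK : 0 ≤ K)
    (hL : ∀ q ∈ closedBall (0 : E2) 2, ∀ q' ∈ closedBall (0 : E2) 2,
      ‖hess (P.dl x ξ) q' - hess (P.dl x ξ) q‖ ≤ K * ‖q' - q‖) {q q' : E2}
    (hq : q ∈ closedBall (0 : E2) 2) (hq' : q' ∈ closedBall (0 : E2) 2)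
    (hA : ‖hess (P.dl x ξ) q‖ ≤ A) :
    ‖P.gr x ξ q' - P.gr x ξ q‖ ≤ (A + K * ‖q' - q‖) * ‖q' - q‖ := by
  have hseg : segment ℝ q q' ⊆ closedBall (0 : E2) 2 :=
    (convex_closedBall _ _).segment_subset hq hq'
  refine (convex_segment q q').norm_image_sub_le_of_norm_fderiv_le (f := P.gr x ξ)
    (fun w hw => hess_diff (dlq_contDiffAt P x ξ (P.Af.closedBall_dT x (hseg hw))))
    (fun w hw => ?_) (left_mem_segment ℝ q q') (right_mem_segment ℝ q q')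
  have h1 := hL q hq w (hseg hw)
  have h2 : ‖w - q‖ ≤ ‖q' - q‖ := norm_sub_le_of_mem_segment hw
  have h3 : ‖hess (P.dl x ξ) w‖ ≤ ‖hess (P.dl x ξ) q‖ +
      ‖hess (P.dl x ξ) w - hess (P.dl x ξ) q‖ := by
    simpa using norm_add_le (hess (P.dl x ξ) q) (hess (P.dl x ξ) w - hess (P.dl x ξ) q)
  change ‖hess (P.dl x ξ) w‖ ≤ _
  have h4 : K * ‖w - q‖ ≤ K * ‖q' - q‖ := by gcongr
  linarith

/-- `b < 2 a` -/
theorem b_lt : P.Ra.b < 2 * P.Ra.a := by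
  have h1 := P.Ra.pinch
  have h2 := P.Ra.a_pos
  linarith

/-- **(T2h)** -/
theorem t2h {ε₀ : ℝ} (h0 : 0 < ε₀) (hd : P.T2d ε₀) : ∃ ε₁ > 0, ε₁ ≤ ε₀ ∧ P.T2h ε₁ := by
  obtain ⟨ε₁, hε₁, K₁, hK₁, hq⟩ := exists_hq P (ε := 1) one_pos
  obtain ⟨K₂, hK₂, hN⟩ := newton_N0 P
  obtain ⟨K₃, hK₃, hN0⟩ := N0_bound P
  obtain ⟨K₄, hK₄, hL⟩ := exists_hess_lip P
  obtain ⟨C₀, hC₀⟩ := hd 1 (by rw [one_mul]; exact b_lt P) 2 le_rfl
  set C := max C₀ 0 with hC
  have hC0 : 0 ≤ C := le_max_right _ _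
  refine ⟨min ε₁ ε₀, lt_min hε₁ h0, min_le_right _ _,
    K₂ * (K₁ * (1 + C)) ^ 2 + K₃ * ((C + K₄ * (K₁ * (1 + C))) * (K₁ * (1 + C))), ?_⟩
  intro x ξ hNr q hq1
  have hNr1 : P.Nr ε₁ x ξ := ⟨hNr.1, hNr.2.trans (min_le_left _ _)⟩
  have hNr0 : P.Nr ε₀ x ξ := ⟨hNr.1, hNr.2.trans (min_le_right _ _)⟩
  have hq74 : q ∈ closedBall (0 : E2) (7 / 4) :=
    ball_subset_closedBall (ball_subset_ball (by norm_num) hq1)
  have hq2 : q ∈ closedBall (0 : E2) 2 := closedBall_subset_closedBall (by norm_num) hq74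
  obtain ⟨h1, h2, h3, -, h5, -⟩ := hq x ξ hNr1 q hq74
  refine ⟨h1, h2, h3, ?_⟩
  have h1' := ball_subset_closedBall h1
  set q' := P.Hq x ξ q with hq'
  set t := ‖P.gr x ξ 0‖ with ht
  have ht0 : 0 ≤ t := norm_nonneg _
  have hhess : ∀ w ∈ ball (0 : E2) 1, ‖hess (P.dl x ξ) w‖ ≤ C * t := by
    intro w hw
    have hTw := P.Af.closedBall_dT x (ball_subset_closedBall (ball_subset_ball one_le_two hw))
    have h6 := hC₀ x ξ hNr0 w hw
    rw [Real.rpow_one] at h6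
    have h7 : ContDiffAt ℝ 2 (P.dl x ξ) w := (dlq_contDiffAt P x ξ hTw).of_le
      (WithTop.coe_le_coe.2 (le_top : (2 : ℕ∞) ≤ ⊤))
    have h8 : DifferentiableAt ℝ (fderiv ℝ (P.dl x ξ)) w :=
      (h7.fderiv_right (m := 1) (by norm_num)).differentiableAt (by norm_num)
    refine (norm_hess_le h8).trans (h6.trans ?_)
    gcongr
    exact le_max_left _ _
  have hgr : ‖P.gr x ξ q‖ ≤ (1 + C) * t := by
    have h6 : ‖P.gr x ξ q - P.gr x ξ 0‖ ≤ C * t * ‖q - 0‖ :=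
      (convex_ball (0 : E2) 1).norm_image_sub_le_of_norm_fderiv_le (f := P.gr x ξ)
        (fun w hw => hess_diff (dlq_contDiffAt P x ξ (P.Af.closedBall_dT x
          (ball_subset_closedBall (ball_subset_ball one_le_two hw)))))
        (fun w hw => hhess w hw) (mem_ball_self one_pos) hq1
    have h7 : ‖q - 0‖ ≤ 1 := by
      rw [sub_zero]
      exact (mem_ball_zero_iff.1 hq1).le
    have h8 : C * t * ‖q - 0‖ ≤ C * t := mul_le_of_le_one_right (by positivity) h7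
    have h9 : ‖P.gr x ξ q‖ ≤ ‖P.gr x ξ 0‖ + ‖P.gr x ξ q - P.gr x ξ 0‖ := by
      simpa using norm_add_le (P.gr x ξ 0) (P.gr x ξ q - P.gr x ξ 0)
    linarith
  have hqq : ‖q' - q‖ ≤ K₁ * (1 + C) * t := by
    calc _ ≤ K₁ * ‖P.gr x ξ q‖ := h5
      _ ≤ K₁ * ((1 + C) * t) := by gcongr
      _ = _ := by ring
  have hgg := gr_sub_le P hK₄ (hL x ξ) hq2 h1' (hhess q hq1)
  have hgg' : ‖P.gr x ξ q' - P.gr x ξ q‖ ≤
      (C + K₄ * (K₁ * (1 + C))) * (K₁ * (1 + C)) * t ^ 2 := by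
    calc _ ≤ (C * t + K₄ * ‖q' - q‖) * ‖q' - q‖ := hgg
      _ ≤ (C * t + K₄ * (K₁ * (1 + C) * t)) * (K₁ * (1 + C) * t) := by gcongr
      _ = _ := by ring
  have hne := hN x ξ q hq2 q' h1' h2
  have e1 : q' - q + P.N0 x q (P.gr x ξ q) =
      (q' - q + P.N0 x q (P.gr x ξ q')) - P.N0 x q (P.gr x ξ q' - P.gr x ξ q) := by
    rw [map_sub]
    abel
  rw [e1]
  calc _ ≤ ‖q' - q + P.N0 x q (P.gr x ξ q')‖ + ‖P.N0 x q (P.gr x ξ q' - P.gr x ξ q)‖ :=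
        norm_sub_le _ _
    _ ≤ K₂ * ‖q' - q‖ ^ 2 + K₃ * ‖P.gr x ξ q' - P.gr x ξ q‖ :=
        add_le_add hne (hN0 x q hq2 _)
    _ ≤ K₂ * (K₁ * (1 + C) * t) ^ 2 +
        K₃ * ((C + K₄ * (K₁ * (1 + C))) * (K₁ * (1 + C)) * t ^ 2) := by gcongr
    _ = _ := by ring

end Vale.Agent.P207.N4.V.H709
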