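import Vale.Agent.P207.N5.H709.T2G
import Vale.Agent.P207.N5.H790.T2aMain
import Vale.Agent.P207.N5.H242.PicDich
import Vale.Agent.P207.N5.H751.SB2
import Vale.Agent.P207.N5.H478.Spine
import Vale.Agent.P207.N5.H988.T3Main

/-!
# P207, line N5: steps 1 to 7 from (SINV), (PROD)

`main_of` : the smooth alternative over `PicG`, with (SINV), (PROD) as arguments.
-/

open Set Filter Topology Metric MeasureTheory
open scoped ContDiff

noncomputable section

namespace Vale.Agent.P207.N4.V.H709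

open Vale.Agent.P207.N4.H709

open Vale.Agent.P207.N3

variable [Dim]

variable {Γ X B : Type} [Group Γ] [MetricSpace X] [ProperSpace X] [MulAction Γ X]
  [IsIsometricSMul Γ X] [TopologicalSpace B] [CompactSpace B] [T2Space B] [MulAction Γ B]
  [ContinuousConstSMul Γ B] {L : Leaf Γ X B} [MeasurableSpace B] [BorelSpace B] {V : Type}
  [NormedAddCommGroup V] [NormedSpace ℝ V] [FiniteDimensional ℝ V]

/-- (T2), (T3) for one threshold -/
theorem exists_T (P : PicG L V) : ∃ ε₀, 0 < ε₀ ∧ P.toPic.T2d ε₀ ∧ P.toPic.T2a ε₀ ∧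
    P.toPic.T2h ε₀ ∧ P.toPic.T3 ε₀ := by
  obtain ⟨ε₁, h1, h1'⟩ := H790.t2a P.toPic (H469.angR P)
  obtain ⟨ε₂, h2, h2'⟩ := t2hG P
  obtain ⟨ε₃, h3, h3'⟩ := H988.t3 P
  have h4 : 0 < min ε₁ (min ε₂ ε₃) := lt_min h1 (lt_min h2 h3)
  exact ⟨_, h4, H469.t2dG P _, h1' _ h4 (min_le_left _ _),
    t2h_mono P.toPic ((min_le_right _ _).trans (min_le_left _ _)) h2',
    h3' _ ((min_le_right _ _).trans (min_le_right _ _))⟩

/-- (DICH) from (SINV) -/
theorem dich_of (P : PicG L V) (hI : P.toPic.SInv) : P.toPic.Dich := by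
  obtain ⟨ε₀, h0, h1, h2, h3, h4⟩ := exists_T P
  exact H242.dich P.toPic h0 h1 h2 h3 h4 hI (H751.sb P.toPic (H832.rateP P.toPic))

/-- **steps 1 to 7** from (SINV), (PROD) -/
theorem main_of (P : PicG L V) (hI : P.toPic.SInv) (hP : P.toPic.Prod) : SmoothAlt P.S.T :=
  P.toPic.steps17 (dich_of P hI) hP

end Vale.Agent.P207.N4.V.H709
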