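import Vale.Agent.P207.N5.H58.PicG
import Vale.Agent.P207.N5.H709.Rat

/-!
# P207, line N5: the data of the logic from the geometry

`picG_of` : `PicG L V` from a suite, the connection and the pinching, without any condition on the
rate `χ` of `L`.
-/

open Set Filter Topology Metric MeasureTheory
open scoped ContDiff

noncomputable section

namespace Vale.Agent.P207.N4.V.H709

open Vale.Agent.P207.N4.H709

open Vale.Agent.P207.N3

variable [Dim]

variable {Γ X B : Type} [Group Γ] [MetricSpace X] [ProperSpace X] [MulAction Γ X]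
  [IsIsometricSMul Γ X] [TopologicalSpace B] [CompactSpace B] [T2Space B] [MulAction Γ B]
  [ContinuousConstSMul Γ B]

/-- `PicG` from the geometry and the pinching of the horospheres -/
theorem picG_of {L : Leaf Γ X B} [MeasurableSpace B] [BorelSpace B] {V : Type}
    [NormedAddCommGroup V] [NormedSpace ℝ V] [FiniteDimensional ℝ V] (S : Suite L V)
    (Cn : H618.Conn S.I S.M.U) {a b : ℝ} (ha : 0 < a) (hab : a ≤ b) (hp : b < 2 * a)
    (hlo : ∀ x v, a * ‖v‖ ^ 2 ≤ inner ℝ (S.M.U x v) v)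
    (hhi : ∀ x v, inner ℝ (S.M.U x v) v ≤ b * ‖v‖ ^ 2) :
    ∃ P : PicG L V, P.S = S ∧ P.Ra.a = a ∧ P.Ra.b = b := by
  obtain ⟨F, -, -, -⟩ := aff_of_rates S.M ha (by linarith) hlo hhi
  exact ⟨PicG.mk' S Cn F ⟨a, b, ha, hab, hp, hlo, hhi⟩, rfl, rfl, rfl⟩

end Vale.Agent.P207.N4.V.H709
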