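import Vale.Agent.P207.N5.H469.T2Main
import Vale.Agent.P207.N5.H709.Kq

/-!
# P207, line N5: T2h, HqB, KqB over `PicG`
-/

open Set Filter Topology Metric MeasureTheory
open scoped ContDiff

noncomputable section

namespace Vale.Agent.P207.N4.V.H709

open Vale.Agent.P207.N4.H709

open Vale.Agent.P207.N3

variable [Dim]

variable {Γ X B : Type} [Group Γ] [MetricSpace X] [ProperSpace X] [MulAction Γ X]
  [IsIsometricSMul Γ X] [TopologicalSpace B] [CompactSpace B] [T2Space B] [MulAction Γ B]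
  [ContinuousConstSMul Γ B] {L : Leaf Γ X B} [MeasurableSpace B] [BorelSpace B] {V : Type}
  [NormedAddCommGroup V] [NormedSpace ℝ V] [FiniteDimensional ℝ V]

theorem t2h_mono (P : Pic L V) {ε ε' : ℝ} (h : ε' ≤ ε) (hT : P.T2h ε) : P.T2h ε' := by
  obtain ⟨C, hC⟩ := hT
  exact ⟨C, fun x ξ hN => hC x ξ ⟨hN.1, hN.2.trans h⟩⟩

/-- **(T2h)** over `PicG` -/
theorem t2hG (P : PicG L V) : ∃ ε₁ > 0, P.toPic.T2h ε₁ := by
  obtain ⟨ε₁, h1, -, h2⟩ := t2h P.toPic one_pos (H469.t2dG P 1)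
  exact ⟨ε₁, h1, h2⟩

theorem hqBG (P : PicG L V) : ∃ ε₁ > 0, H790.HqB P.toPic ε₁ := by
  obtain ⟨ε₁, h1, -, h2⟩ := hqB P.toPic one_pos (H469.t2dG P 1)
  exact ⟨ε₁, h1, h2⟩

theorem kqBG (P : PicG L V) : ∃ ε₁ > 0, H790.KqB P.toPic ε₁ := by
  obtain ⟨ε₁, h1, -, h2⟩ := kqB P.toPic one_pos (H469.t2dG P 1)
  exact ⟨ε₁, h1, h2⟩

end Vale.Agent.P207.N4.V.H709
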